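import Vale.Agent.P062.ARoot

namespace Vale.Agent.P062

theorem Ah12 : Aroot.all At12 = true := by decide +kernel

theorem Ah13 : Aroot.all At13 = true := by decide +kernel

theorem Ah14 : Aroot.all At14 = true := by decide +kernel

theorem Ah15 : Aroot.all At15 = true := by decide +kernel

theorem Ah16 : Aroot.all At16 = true := by decide +kernel

theorem Ah17 : Aroot.all At17 = true := by decide +kernel

theorem Ah18 : Aroot.all At18 = true := by decide +kernel

theorem Ah19 : Aroot.all At19 = true := by decide +kernel

theorem Ah20 : Aroot.all At20 = true := by decide +kernel

theorem Ah21 : Aroot.all At21 = true := by decide +kernel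

theorem Ah22 : Aroot.all At22 = true := by decide +kernel

theorem Ah23 : Aroot.all At23 = true := by decide +kernel


end Vale.Agent.P062
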