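import Vale.Agent.P062.ARoot

namespace Vale.Agent.P062

theorem Ah24 : Aroot.all At24 = true := by decide +kernel

theorem Ah25 : Aroot.all At25 = true := by decide +kernel

theorem Ah26 : Aroot.all At26 = true := by decide +kernel

theorem Ah27 : Aroot.all At27 = true := by decide +kernel

theorem Ah28 : Aroot.all At28 = true := by decide +kernel

theorem Ah29 : Aroot.all At29 = true := by decide +kernel

theorem Ah30 : Aroot.all At30 = true := by decide +kernel

theorem Ah31 : Aroot.all At31 = true := by decide +kernel

theorem Ah32 : Aroot.all At32 = true := by decide +kernel

theorem Ah33 : Aroot.all At33 = true := by decide +kernel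

theorem Ah34 : Aroot.all At34 = true := by decide +kernel

theorem Ah35 : Aroot.all At35 = true := by decide +kernel


end Vale.Agent.P062
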