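import Vale.Agent.P062.ARoot

namespace Vale.Agent.P062

theorem Ah36 : Aroot.all At36 = true := by decide +kernel

theorem Ah37 : Aroot.all At37 = true := by decide +kernel

theorem Ah38 : Aroot.all At38 = true := by decide +kernel

theorem Ah39 : Aroot.all At39 = true := by decide +kernel

theorem Ah40 : Aroot.all At40 = true := by decide +kernel

theorem Ah41 : Aroot.all At41 = true := by decide +kernel

theorem Ah42 : Aroot.all At42 = true := by decide +kernel

theorem Ah43 : Aroot.all At43 = true := by decide +kernel

theorem Ah44 : Aroot.all At44 = true := by decide +kernel

theorem Ah45 : Aroot.all At45 = true := by decide +kernel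

theorem Ah46 : Aroot.all At46 = true := by decide +kernel

theorem Ah47 : Aroot.all At47 = true := by decide +kernel


end Vale.Agent.P062
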