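import Vale.Agent.P062.ARoot

namespace Vale.Agent.P062

theorem Ah48 : Aroot.all At48 = true := by decide +kernel

theorem Ah49 : Aroot.all At49 = true := by decide +kernel

theorem Ah50 : Aroot.all At50 = true := by decide +kernel

theorem Ah51 : Aroot.all At51 = true := by decide +kernel

theorem Ah52 : Aroot.all At52 = true := by decide +kernel

theorem Ah53 : Aroot.all At53 = true := by decide +kernel

theorem Ah54 : Aroot.all At54 = true := by decide +kernel

theorem Ah55 : Aroot.all At55 = true := by decide +kernel

theorem Ah56 : Aroot.all At56 = true := by decide +kernel

theorem Ah57 : Aroot.all At57 = true := by decide +kernel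

theorem Ah58 : Aroot.all At58 = true := by decide +kernel

theorem Ah59 : Aroot.all At59 = true := by decide +kernel


end Vale.Agent.P062
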