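import Vale.Agent.P062.ARoot

namespace Vale.Agent.P062

theorem Ah60 : Aroot.all At60 = true := by decide +kernel

theorem Ah61 : Aroot.all At61 = true := by decide +kernel

theorem Ah62 : Aroot.all At62 = true := by decide +kernel

theorem Ah63 : Aroot.all At63 = true := by decide +kernel

theorem Ah64 : Aroot.all At64 = true := by decide +kernel

theorem Ah65 : Aroot.all At65 = true := by decide +kernel

theorem Ah66 : Aroot.all At66 = true := by decide +kernel

theorem Ah67 : Aroot.all At67 = true := by decide +kernel

theorem Ah68 : Aroot.all At68 = true := by decide +kernel

theorem Ah69 : Aroot.all At69 = true := by decide +kernel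

theorem Ah70 : Aroot.all At70 = true := by decide +kernel

theorem Ah71 : Aroot.all At71 = true := by decide +kernel


end Vale.Agent.P062
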