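import Vale.Agent.P062.ARoot

namespace Vale.Agent.P062

theorem Ah72 : Aroot.all At72 = true := by decide +kernel

theorem Ah73 : Aroot.all At73 = true := by decide +kernel

theorem Ah74 : Aroot.all At74 = true := by decide +kernel

theorem Ah75 : Aroot.all At75 = true := by decide +kernel

theorem Ah76 : Aroot.all At76 = true := by decide +kernel

theorem Ah77 : Aroot.all At77 = true := by decide +kernel

theorem Ah78 : Aroot.all At78 = true := by decide +kernel


end Vale.Agent.P062
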