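import Vale.Agent.P062.AP0
import Vale.Agent.P062.AP1
import Vale.Agent.P062.AP2
import Vale.Agent.P062.AP3
import Vale.Agent.P062.AP4
import Vale.Agent.P062.AP5
import Vale.Agent.P062.AP6

namespace Vale.Agent.P062

theorem Aall : Aroot.all Aroot = true :=
  (Tr.all_nd (Tr.all_nd (Tr.all_nd (Tr.all_nd (Tr.all_nd (Tr.all_nd Ah0 Ah1) (Tr.all_nd Ah2 Ah3)) (Tr.all_nd (Tr.all_nd Ah4 Ah5) (Tr.all_nd Ah6 (Tr.all_nd Ah7 Ah8)))) (Tr.all_nd (Tr.all_nd (Tr.all_nd Ah9 Ah10) (Tr.all_nd Ah11 (Tr.all_nd Ah12 Ah13))) (Tr.all_nd (Tr.all_nd Ah14 Ah15) (Tr.all_nd Ah16 (Tr.all_nd Ah17 Ah18))))) (Tr.all_nd (Tr.all_nd (Tr.all_nd (Tr.all_nd Ah19 Ah20) (Tr.all_nd Ah21 (Tr.all_nd Ah22 Ah23))) (Tr.all_nd (Tr.all_nd Ah24 Ah25) (Tr.all_nd Ah26 (Tr.all_nd Ah27 Ah28))))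 (Tr.all_nd (Tr.all_nd (Tr.all_nd Ah29 Ah30) (Tr.all_nd Ah31 (Tr.all_nd Ah32 Ah33))) (Tr.all_nd (Tr.all_nd Ah34 Ah35) (Tr.all_nd Ah36 (Tr.all_nd Ah37 Ah38)))))) (Tr.all_nd (Tr.all_nd (Tr.all_nd (Tr.all_nd (Tr.all_nd Ah39 Ah40) (Tr.all_nd Ah41 (Tr.all_nd Ah42 Ah43))) (Tr.all_nd (Tr.all_nd Ah44 Ah45) (Tr.all_nd Ah46 (Tr.all_nd Ah47 Ah48)))) (Tr.all_nd (Tr.all_nd (Tr.all_nd Ah49 Ah50) (Tr.all_nd Ah51 (Tr.all_nd Ah52 Ah53))) (Tr.all_nd (Tr.all_nd Ah54 Ah55) (Tr.all_nd Ah56 (Tr.all_nd Ah57 Ah58))))) (Tr.all_nd (Tr.all_nd (Tr.all_nd (Tr.all_nd Ah59 Ah60) (Tr.all_nd Ah61 (Tr.all_nd Ah62 Ah63))) (Tr.all_nd (Tr.all_nd Ah64 Ah65) (Tr.all_nd Ah66 (Tr.all_nd Ah67 Ah68)))) (Tr.all_nd (Tr.all_nd (Tr.all_nd Ah69 Ah70) (Tr.all_nd Ah71 (Tr.all_nd Ah72 Ah73)))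 (Tr.all_nd (Tr.all_nd Ah74 Ah75) (Tr.all_nd Ah76 (Tr.all_nd Ah77 Ah78)))))))

theorem Awin : Win {p | 0 ≤ p.1 ∧ p.1 < 17 ∧ 0 ≤ p.2 ∧ p.2 < 17} 18 ∅ ∅ :=
  win_of_cert (i := 15786) Aall (by decide +kernel)

end Vale.Agent.P062
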