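import Vale.Agent.P062.ARoot

namespace Vale.Agent.P062

theorem Ah0 : Aroot.all At0 = true := by decide +kernel

theorem Ah1 : Aroot.all At1 = true := by decide +kernel

theorem Ah2 : Aroot.all At2 = true := by decide +kernel

theorem Ah3 : Aroot.all At3 = true := by decide +kernel

theorem Ah4 : Aroot.all At4 = true := by decide +kernel

theorem Ah5 : Aroot.all At5 = true := by decide +kernel

theorem Ah6 : Aroot.all At6 = true := by decide +kernel

theorem Ah7 : Aroot.all At7 = true := by decide +kernel

theorem Ah8 : Aroot.all At8 = true := by decide +kernel

theorem Ah9 : Aroot.all At9 = true := by decide +kernel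

theorem Ah10 : Aroot.all At10 = true := by decide +kernel

theorem Ah11 : Aroot.all At11 = true := by decide +kernel


end Vale.Agent.P062
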