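import Vale.Agent.P062.AD0
import Vale.Agent.P062.AD1
import Vale.Agent.P062.AD2
import Vale.Agent.P062.AD3
import Vale.Agent.P062.AD4
import Vale.Agent.P062.AD5
import Vale.Agent.P062.AD6

namespace Vale.Agent.P062

noncomputable def Aroot : Tr :=
  (.nd 7800 (.nd 3800 (.nd 1800 (.nd 800 (.nd 400 (.nd 200 At0 At1) (.nd 600 At2 At3)) (.nd 1200 (.nd 1000 At4 At5) (.nd 1400 At6 (.nd 1600 At7 At8)))) (.nd 2800 (.nd 2200 (.nd 2000 At9 At10) (.nd 2400 At11 (.nd 2600 At12 At13))) (.nd 3200 (.nd 3000 At14 At15) (.nd 3400 At16 (.nd 3600 At17 At18))))) (.nd 5800 (.nd 4800 (.nd 4200 (.nd 4000 At19 At20) (.nd 4400 At21 (.nd 4600 At22 At23))) (.nd 5200 (.nd 5000 At24 At25) (.nd 5400 At26 (.nd 5600 At27 At28)))) (.nd 6800 (.nd 6200 (.nd 6000 At29 At30) (.nd 6400 At31 (.nd 6600 At32 At33))) (.nd 7200 (.nd 7000 At34 At35) (.nd 7400 At36 (.nd 7600 At37 At38)))))) (.nd 11800 (.nd 9800 (.nd 8800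 (.nd 8200 (.nd 8000 At39 At40) (.nd 8400 At41 (.nd 8600 At42 At43))) (.nd 9200 (.nd 9000 At44 At45) (.nd 9400 At46 (.nd 9600 At47 At48)))) (.nd 10800 (.nd 10200 (.nd 10000 At49 At50) (.nd 10400 At51 (.nd 10600 At52 At53))) (.nd 11200 (.nd 11000 At54 At55) (.nd 11400 At56 (.nd 11600 At57 At58))))) (.nd 13800 (.nd 12800 (.nd 12200 (.nd 12000 At59 At60) (.nd 12400 At61 (.nd 12600 At62 At63))) (.nd 13200 (.nd 13000 At64 At65) (.nd 13400 At66 (.nd 13600 At67 At68)))) (.nd 14800 (.nd 14200 (.nd 14000 At69 At70) (.nd 14400 At71 (.nd 14600 At72 At73))) (.nd 15200 (.nd 15000 At74 At75) (.nd 15400 At76 (.nd 15600 At77 At78)))))))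

end Vale.Agent.P062
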