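import Mathlib.Data.Set.Image
import Mathlib.Data.List.Range
import Mathlib.Algebra.Order.Ring.Int
import Mathlib.Algebra.Order.Group.Abs

/-! The weak achievement game for the hexomino Snaky on the board `ℤ × ℤ`. -/

namespace Vale.Agent.P062

/-- The hexomino Snaky. -/
def snaky : Set (ℤ × ℤ) := {(0, 0), (1, 0), (2, 0), (3, 0), (3, 1), (4, 1)}

/-- The matrix with rows `(a, b)` and `(c, d)` is one of the eight signed permutation matrices. -/
def IsSignedPerm (a b c d : ℤ) : Prop :=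
  (|a| = 1 ∧ b = 0 ∧ c = 0 ∧ |d| = 1) ∨ (a = 0 ∧ |b| = 1 ∧ |c| = 1 ∧ d = 0)

/-- `T` is an allowed copy `t + R(S)` of Snaky. -/
def IsCopy (T : Set (ℤ × ℤ)) : Prop :=
  ∃ (t : ℤ × ℤ) (a b c d : ℤ), IsSignedPerm a b c d ∧
    T = (fun p : ℤ × ℤ => (t.1 + (a * p.1 + b * p.2), t.2 + (c * p.1 + d * p.2))) '' snaky

/-- The cell that Maker, following the strategy `σ`, claims on turn `n` (turns are counted from `0`)
when Breaker claims `β j` on turn `j`: the strategy sees only Breaker's earlier claims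
`β 0, …, β (n - 1)`. -/
def makerMove (σ : List (ℤ × ℤ) → ℤ × ℤ) (β : ℕ → ℤ × ℤ) (n : ℕ) : ℤ × ℤ :=
  σ ((List.range n).map β)

/-- Maker's claim on turn `i` is legal: the cell was not claimed before by either player. -/
def MakerLegal (σ : List (ℤ × ℤ) → ℤ × ℤ) (β : ℕ → ℤ × ℤ) (i : ℕ) : Prop :=
  ∀ j < i, makerMove σ β i ≠ makerMove σ β j ∧ makerMove σ β i ≠ β j

/-- Breaker's claim on turn `j` (made after Maker's claim on turn `j`) is legal: the cell was not
claimed before by either player. -/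
def BreakerLegal (σ : List (ℤ × ℤ) → ℤ × ℤ) (β : ℕ → ℤ × ℤ) (j : ℕ) : Prop :=
  (∀ i ≤ j, β j ≠ makerMove σ β i) ∧ ∀ i < j, β j ≠ β i

end Vale.Agent.P062
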