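import Vale.Agent.P062.Defs
import Mathlib.Tactic.Ring
import Mathlib.Tactic.Linarith

/-! Winning positions, extraction of a strategy, and symmetries of the game. -/

namespace Vale.Agent.P062

def HasCopy (M : Set (ℤ × ℤ)) : Prop := ∃ T, IsCopy T ∧ T ⊆ M

/-- Maker, to move, owning `M` against `B`, wins within `n` moves, all played in `Ω`. -/
def Win (Ω : Set (ℤ × ℤ)) : ℕ → Set (ℤ × ℤ) → Set (ℤ × ℤ) → Prop
  | 0, M, _ => HasCopy M
  | n + 1, M, B => HasCopy M ∨ ∃ m ∈ Ω, m ∉ M ∧ m ∉ B ∧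
      ∀ b, b ∉ insert m M → b ∉ B → Win Ω n (insert m M) (insert b B)

theorem Win.succ {Ω : Set (ℤ × ℤ)} {n : ℕ} {M B : Set (ℤ × ℤ)} (h : Win Ω n M B) :
    Win Ω (n + 1) M B := by
  induction n generalizing M B with
  | zero => exact Or.inl h
  | succ n ih =>
    rcases h with h | ⟨m, h1, h2, h3, h4⟩
    · exact Or.inl h
    · exact Or.inr ⟨m, h1, h2, h3, fun b hb hb' => ih (h4 b hb hb')⟩

theorem Win.zone {Ω Ω' : Set (ℤ × ℤ)} (hΩ : Ω ⊆ Ω') {n : ℕ} {M B : Set (ℤ × ℤ)}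
    (h : Win Ω n M B) : Win Ω' n M B := by
  induction n generalizing M B with
  | zero => exact h
  | succ n ih =>
    rcases h with h | ⟨m, h1, h2, h3, h4⟩
    · exact Or.inl h
    · exact Or.inr ⟨m, hΩ h1, h2, h3, fun b hb hb' => ih (h4 b hb hb')⟩

theorem Win.le {Ω : Set (ℤ × ℤ)} {n n' : ℕ} (hn : n ≤ n') {M B : Set (ℤ × ℤ)}
    (h : Win Ω n M B) : Win Ω n' M B := by
  induction hn with
  | refl => exact h
  | step _ ih => exact ih.succ

/-- The statement extracted from a winning position. -/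
def Strat (Ω : Set (ℤ × ℤ)) (n : ℕ) (M B : Set (ℤ × ℤ)) (σ : List (ℤ × ℤ) → ℤ × ℤ) : Prop :=
  ∀ β : ℕ → ℤ × ℤ, (∀ j < n, β j ∉ M ∧ β j ∉ B ∧ BreakerLegal σ β j) →
    ∃ k ≤ n, (∀ i < k, makerMove σ β i ∉ M ∧ makerMove σ β i ∉ B ∧ makerMove σ β i ∈ Ω ∧
      MakerLegal σ β i) ∧ ∃ T, IsCopy T ∧ ∀ p ∈ T, p ∈ M ∨ ∃ i < k, makerMove σ β i = p

theorem strat_of_copy {Ω : Set (ℤ × ℤ)} {n : ℕ} {M B : Set (ℤ × ℤ)} (h : HasCopy M) :
    ∃ σ, Strat Ω n M B σ := by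
  obtain ⟨T, hT, hM⟩ := h
  exact ⟨fun _ => (0, 0), fun β _ => ⟨0, Nat.zero_le _, fun i hi => absurd hi (Nat.not_lt_zero _),
    T, hT, fun p hp => Or.inl (hM hp)⟩⟩

/-- play `m`, then follow `τ b` after Breaker's answer `b` -/
def glue (m : ℤ × ℤ) (τ : ℤ × ℤ → List (ℤ × ℤ) → ℤ × ℤ) : List (ℤ × ℤ) → ℤ × ℤ
  | [] => m
  | b :: l => τ b l

theorem glue_zero (m : ℤ × ℤ) (τ : ℤ × ℤ → List (ℤ × ℤ) → ℤ × ℤ) (β : ℕ → ℤ × ℤ) :
    makerMove (glue m τ) β 0 = m := rfl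

theorem glue_succ (m : ℤ × ℤ) (τ : ℤ × ℤ → List (ℤ × ℤ) → ℤ × ℤ) (β : ℕ → ℤ × ℤ) (i : ℕ) :
    makerMove (glue m τ) β (i + 1) = makerMove (τ (β 0)) (fun j => β (j + 1)) i := by
  unfold makerMove
  rw [List.range_succ_eq_map, List.map_cons, List.map_map]
  rfl

theorem Win.strat {Ω : Set (ℤ × ℤ)} {n : ℕ} {M B : Set (ℤ × ℤ)} (h : Win Ω n M B) :
    ∃ σ, Strat Ω n M B σ := by
  induction n generalizing M B with
  | zero => exact strat_of_copy h
  | succ n ih =>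
    rcases h with h | ⟨m, h1, h2, h3, h4⟩
    · exact strat_of_copy h
    have h5 : ∀ b, ∃ τ, b ∉ insert m M → b ∉ B → Strat Ω n (insert m M) (insert b B) τ := by
      intro b
      by_cases hb : b ∉ insert m M ∧ b ∉ B
      · obtain ⟨τ, hτ⟩ := ih (h4 b hb.1 hb.2)
        exact ⟨τ, fun _ _ => hτ⟩
      · exact ⟨fun _ => (0, 0), fun x y => absurd ⟨x, y⟩ hb⟩
    choose τ hτ using h5
    refine ⟨glue m τ, fun β hβ => ?_⟩
    obtain ⟨b1, b2, b3, -⟩ := hβ 0 (Nat.succ_pos _)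
    have b4 : β 0 ≠ m := b3 0 le_rfl
    have b5 : β 0 ∉ insert m M := fun h => h.elim b4 b1
    obtain ⟨k, hk, hl, T, hT, hp⟩ := hτ (β 0) b5 b2 (fun j => β (j + 1)) (by
      intro j hj
      obtain ⟨c1, c2, c3, c4⟩ := hβ (j + 1) (Nat.succ_lt_succ hj)
      refine ⟨fun h => h.elim (c3 0 (Nat.zero_le _)) c1,
        fun h => h.elim (c4 0 (Nat.succ_pos _)) c2, fun i hi => ?_,
        fun i hi => c4 (i + 1) (Nat.succ_lt_succ hi)⟩
      have := c3 (i + 1) (Nat.succ_le_succ hi)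
      rwa [glue_succ] at this)
    refine ⟨k + 1, Nat.succ_le_succ hk, fun i hi => ?_, T, hT, fun p hpT => ?_⟩
    · cases i with
      | zero => exact ⟨h2, h3, h1, fun j hj => absurd hj (Nat.not_lt_zero _)⟩
      | succ i =>
        obtain ⟨d1, d2, d3, d4⟩ := hl i (Nat.lt_of_succ_lt_succ hi)
        unfold MakerLegal
        rw [glue_succ]
        refine ⟨fun h => d1 (Or.inr h), fun h => d2 (Or.inr h), d3, fun j hj => ?_⟩
        cases j with
        | zero => exact ⟨fun h => d1 (Or.inl h), fun h => d2 (Or.inl h)⟩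
        | succ j =>
          rw [glue_succ]
          exact d4 j (Nat.lt_of_succ_lt_succ hj)
    · rcases hp p hpT with (h | h) | ⟨i, hi, h⟩
      · exact Or.inr ⟨0, Nat.succ_pos _, h.symm⟩
      · exact Or.inl h
      · exact Or.inr ⟨i + 1, Nat.succ_lt_succ hi, by rw [glue_succ]; exact h⟩

/-- maps of the board that are injective and send allowed copies to allowed copies -/
def Good (g : ℤ × ℤ → ℤ × ℤ) : Prop :=
  Function.Injective g ∧ ∀ T, IsCopy T → IsCopy (g '' T)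

theorem Good.comp {g h : ℤ × ℤ → ℤ × ℤ} (hg : Good g) (hh : Good h) : Good (g ∘ h) :=
  ⟨hg.1.comp hh.1, fun T hT => by rw [Set.image_comp]; exact hg.2 _ (hh.2 _ hT)⟩

theorem good_id : Good id := ⟨Function.injective_id, fun T hT => by rwa [Set.image_id]⟩

def aff (s t a b c d : ℤ) (p : ℤ × ℤ) : ℤ × ℤ := (s + (a * p.1 + b * p.2), t + (c * p.1 + d * p.2))

theorem abs_one {a : ℤ} (h : |a| = 1) : a = 1 ∨ a = -1 := (abs_eq (by decide)).1 h

theorem good_aff (s t : ℤ) {a b c d : ℤ} (h : IsSignedPerm a b c d) : Good (aff s t a b c d) := by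
  constructor
  · rintro ⟨x, y⟩ ⟨x', y'⟩ e
    simp only [aff, Prod.mk.injEq] at e ⊢
    rcases h with ⟨h1, rfl, rfl, h2⟩ | ⟨rfl, h1, h2, rfl⟩ <;>
      rcases abs_one h1 with rfl | rfl <;> rcases abs_one h2 with rfl | rfl <;> omega
  · rintro T ⟨u, a', b', c', d', h', rfl⟩
    refine ⟨aff s t a b c d u, a * a' + b * c', a * b' + b * d', c * a' + d * c', c * b' + d * d',
      ?_, ?_⟩
    · rcases h with ⟨h1, rfl, rfl, h2⟩ | ⟨rfl, h1, h2, rfl⟩ <;>
        rcases h' with ⟨h3, rfl, rfl, h4⟩ | ⟨rfl, h3, h4, rfl⟩ <;>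
        rcases abs_one h1 with rfl | rfl <;> rcases abs_one h2 with rfl | rfl <;>
        rcases abs_one h3 with rfl | rfl <;> rcases abs_one h4 with rfl | rfl <;>
        unfold IsSignedPerm <;> decide
    · rw [Set.image_image]
      congr 1
      funext p
      simp only [aff, Prod.mk.injEq]
      constructor <;> ring

end Vale.Agent.P062
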